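import Vale.Agent.P032.H617.BS.Tst

/-!
# P032: the steps which are not `NsC`, by a certificate: the windows of one colour
-/

namespace Vale.Agent.P032.H617.BS

open Vale.Agent.P032.H859.Rup
open Vale.Agent.P032.H184 (P N lit_P lit_N CL CL_cons CL_nil mk sat_mk cs CL_cs f6)
open Vale.Agent.P032.Six Vale.Agent.P032.H429 Vale.Agent.P032.H158 Vale.Agent.P032.H728
  Vale.Agent.P032.H623

variable {s s' : St}

/-- the true literals of the atoms of one colour -/
def rowF (w w' : ZMod 6 × ℕ) : List ℕ :=
  (List.range 30).map fun v => 2 * v + cond (vb w w' v) 0 1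

def rowOf (w w' : ZMod 6 × ℕ) : ℕ := mk (rowF w w')

/-- the masks of all steps of a window -/
def rows84 : List ℕ := [
  768521954879253162, 764087624484432554, 768591241023236778, 767482658424531626,
  768608562559232682, 768331416909556394, 750507557426735786, 768526285263252138,
  696468695453182634, 768543606799248042, 480313247558970026, 768612892943231658,
  764088723991866026, 767482933301389994, 768331485628770986, 480383616303082154,
  696486287639210666, 750511955473242794, 764087641664300714, 764088741171734186,
  762979333942453930, 762980433449887402, 767482662719498666, 767482937596357034,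
  767205585789036970, 767205860665895338, 762979338237420970, 762980437744854442,
  762702261306959274, 762703360814392746, 768331417983298154, 768331486702512746,
  480102141343148650, 480102210062363242, 767205586862778730, 767205861739637098,
  478976310222629226, 478976585099487594, 762702262380701034, 762703361888134506,
  474472985740551530, 480313247827405466, 480383616571517594, 408255928667368090,
  408326297411480218, 480102141611584090, 480102210330798682, 408044822451546714,
  408044891170761306, 478976310491064666, 478976585367923034, 406918991331027290,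
  696468695520291494, 696486287706319526, 678454365730282150, 678471957916310182,
  408255928734476950, 408326297478589078, 390241598944467606, 390311967688579734,
  408044822518655574, 408044891237870166, 390030492728646230, 750507557443513001,
  746074326556125865, 750511955490020009, 746078724602632873, 746074343735994025,
  744966036014147241, 746078741782501033, 744970434060654249, 744966040309114281,
  744688963378652585, 744970438355621289, 678454365747059365, 674021134859672229,
  678471957933087397, 674038727045700261, 674021152039540389, 672912844317693605,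
  674038744225568421, 390241598961244821, 385808368073857685, 390311967705356949]

/-- the steps of a window -/
def stp (w : ZMod 6 × ℕ) (m : ℕ) : ZMod 6 × ℕ :=
  match m with
  | 0 => w
  | 1 => (w.1 - 1, w.2 + 1)
  | 2 => (w.1 - 1, w.2)
  | _ => (w.1, w.2 - 1)

theorem row_mem : ∀ (a : ZMod 6) (n m : Fin 4), (stp (a, n.val) m.val).2 ≤ 3 →
    (m.val = 3 → 1 ≤ n.val) → memB (rowOf (a, n.val) (stp (a, n.val) m.val)) rows84 = true := by
  decide +kernel

theorem row_mem' {w w' : ZMod 6 × ℕ} (h : w.2 ≤ 3) (h' : w'.2 ≤ 3) (hs : WStep w w') :
    rowOf w w' ∈ rows84 := by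
  obtain ⟨a, n⟩ := w
  have hn : n < 4 := Nat.lt_succ_of_le h
  rcases hs with rfl | rfl | rfl | ⟨h1, rfl⟩
  · exact memB_spec (row_mem a ⟨n, hn⟩ 0 h' (fun h => absurd h (by decide)))
  · exact memB_spec (row_mem a ⟨n, hn⟩ 1 h' (fun h => absurd h (by decide)))
  · exact memB_spec (row_mem a ⟨n, hn⟩ 2 h' (fun h => absurd h (by decide)))
  · exact memB_spec (row_mem a ⟨n, hn⟩ 3 h' (fun _ => h1))

theorem mk_mem {c : List ℕ} {l : ℕ} (h : (mk c).testBit l = true) : l ∈ c := by
  induction c with
  | nil =>
    replace h : (0 : ℕ).testBit l = true := h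
    rw [Nat.zero_testBit] at h
    cases h
  | cons a c ih =>
    replace h : ((1 <<< a) ||| mk c).testBit l = true := h
    rw [Nat.testBit_or, Bool.or_eq_true] at h
    rcases h with h | h
    · rw [Nat.shiftLeft_eq, one_mul, Nat.testBit_two_pow] at h
      rw [of_decide_eq_true h]
      exact List.mem_cons_self
    · exact List.mem_cons_of_mem _ (ih h)

/-- all masks of the list meet `c` -/
noncomputable def allR (c : ℕ) (l : List ℕ) : Bool :=
  List.rec (motive := fun _ => Bool) true (fun r _ ih => Bool.rec (motive := fun _ => Bool) ih false
    (Nat.beq (Nat.land c r) 0)) l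

theorem allR_spec {c : ℕ} {l : List ℕ} (h : allR c l = true) : ∀ r ∈ l, Nat.land c r ≠ 0 := by
  induction l with
  | nil => intro r hr; cases hr
  | cons a l ih =>
    replace h : Bool.rec (motive := fun _ => Bool) (allR c l) false
      (Nat.beq (Nat.land c a) 0) = true := h
    cases hb : Nat.beq (Nat.land c a) 0 with
    | true => rw [hb] at h; cases h
    | false =>
      rw [hb] at h
      intro r hr
      rcases List.mem_cons.1 hr with rfl | hr
      · intro h0
        rw [h0] at hb
        cases hb
      · exact ih h r hr

/-- the test of a clause about one colour -/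
noncomputable def tstV (c i : ℕ) : Bool :=
  bif lt i 6 then
    bif Nat.beq (Nat.shiftLeft (Nat.shiftRight c (288 + 60 * i)) (288 + 60 * i)) c then
      allR (Nat.shiftRight c (288 + 60 * i)) rows84 else false
  else false

theorem sat_tstV (h : StepC All Et s s') {c i : ℕ} (ht : tstV c i = true) : Sat (nu s s') c := by
  unfold tstV at ht
  cases h1 : lt i 6 with
  | false => rw [h1, cond_false] at ht; cases ht
  | true =>
    rw [h1, cond_true] at ht
    have hi := lt_iff.1 h1
    cases h2 : Nat.beq (Nat.shiftLeft (Nat.shiftRight c (288 + 60 * i)) (288 + 60 * i)) c with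
    | false => rw [h2, cond_false] at ht; cases ht
    | true =>
      rw [h2, cond_true] at ht
      have h4 := allR_spec ht _ (row_mem' (h.ok.ok.1 (f6 i)) (h.ok'.ok.1 (f6 i)) (h.win (f6 i)))
      obtain ⟨l, hl⟩ : ∃ l, (Nat.shiftRight c (288 + 60 * i) &&&
          rowOf (s.2 (f6 i)) (s'.2 (f6 i))).testBit l = true := by
        by_contra hcon
        push Not at hcon
        exact h4 (Nat.eq_of_testBit_eq fun l => by
          rw [Nat.zero_testBit]
          exact Bool.eq_false_iff.2 (hcon l))
      rw [Nat.testBit_and, Bool.and_eq_true] at hl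
      obtain ⟨hl1, hl2⟩ := hl
      have hl1' : (c >>> (288 + 60 * i)).testBit l = true := hl1
      rw [Nat.testBit_shiftRight] at hl1'
      refine ⟨288 + 60 * i + l, hl1', ?_⟩
      obtain ⟨v, hv, e⟩ := List.mem_map.1 (mk_mem hl2)
      have hv : v < 30 := List.mem_range.1 hv
      cases hb : vb (s.2 (f6 i)) (s'.2 (f6 i)) v with
      | true =>
        rw [hb, cond_true] at e
        have e2 : 288 + 60 * i + l = P (vV i v) := by unfold P vV; omega
        rw [e2, lit_P, nuV hi hv, hb]
      | false =>
        rw [hb, cond_false] at e
        have e2 : 288 + 60 * i + l = N (vV i v) := by unfold N vV; omega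
        rw [e2, lit_N, nuV hi hv, hb]
        exact Bool.false_ne_true

/-! ### The test -/

def fld (a n w : ℕ) : ℕ := Nat.land (Nat.shiftRight a n) w

/-- the test of a leaf -/
noncomputable def tst (c a f : ℕ) : Bool :=
  bif Nat.beq f 6 then tstV c a
  else bif okX f (fld a 0 63) (fld a 6 15) (fld a 10 7) (fld a 13 15) (Nat.shiftRight a 17) then
    Nat.beq c (mk (clsX f (fld a 0 63) (fld a 6 15) (fld a 10 7) (fld a 13 15)
      (Nat.shiftRight a 17)))
  else false

theorem sat_tst (h : StepC All Et s s') (hn : ¬ NsC s.1 s'.1) (c a f : ℕ)
    (ht : tst c a f = true) : Sat (nu s s') c := by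
  unfold tst at ht
  cases h1 : Nat.beq f 6 with
  | true => rw [h1, cond_true] at ht; exact sat_tstV h ht
  | false =>
    rw [h1, cond_false] at ht
    cases h2 : okX f (fld a 0 63) (fld a 6 15) (fld a 10 7) (fld a 13 15) (Nat.shiftRight a 17) with
    | false => rw [h2, cond_false] at ht; cases ht
    | true =>
      rw [h2, cond_true] at ht
      rw [Nat.eq_of_beq_eq_true ht]
      exact sat_mk (cls_true h hn h2)

/-- **all learned clauses are true** -/
theorem learned_bs (h : StepC All Et s s') (hn : ¬ NsC s.1 s'.1) {E n : ℕ} (hE : Even' E)
    {B D : Tr} (hB : allb tst B = true) (hD : run E (look (getC B) n D) n D 0 1 = true) (j : ℕ) :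
    Sat (nu s s') (getC D j) :=
  learned hE hD (fun i _ => sat_of_allb (fun c H k => sat_tst h hn c H k) B hB i) j

/-- the unit clause -/
theorem notG {k c : ℕ} (hc : c = mk [N (vG k)]) (h : Sat (nu s s') c) : ¬ GP s s' k := by
  obtain ⟨l, h1, h2⟩ := h
  rw [hc] at h1
  have h3 := mk_mem h1
  rw [List.mem_singleton] at h3
  rw [h3, lit_N, nuG] at h2
  exact h2

end Vale.Agent.P032.H617.BS
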