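import Vale.Agent.P032.H859.Rup
import Vale.Agent.P032.H184.LO
import Vale.Agent.P032.H623.BrOf
import Vale.Agent.P032.H437.Wt.Rows

/-!
# P032: the steps which are not `NsC`, by a certificate: the clauses

`nu s s'` : the variables at a step `s`, `s'`; `tst c a f` : the mask `c` is a clause of the family
`f` with the packed arguments `a`; `sat_tst` : such a clause is true at a step which is not `NsC`.
-/

namespace Vale.Agent.P032.H617.BS

open Vale.Agent.P032.H859.Rup
open Vale.Agent.P032.H184 (P N lit_P lit_N CL CL_cons CL_nil mk sat_mk cs CL_cs f6)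
open Vale.Agent.P032.Six Vale.Agent.P032.H429 Vale.Agent.P032.H158 Vale.Agent.P032.H728
  Vale.Agent.P032.H623
open Vale.Agent.P032.H437.Wt (q0 q1 q2 q3 q4 q5 q6 q7 q8 q9 q10 q11 q12 q13 q14 q15 q16 q17 q18 q19 q20
   q21 q22 q23 q24 q25 q26 q27 q28 q29 q30 q31 q32 q33 q34 q35 q36 q37 q38 q39 q40 q41 q42
   q43 q44 q45 q46 q47 q48 q49 q50 q51 q52 q53 q54 q55 q56)

/-! ### Data -/

/-- the columns -/
def c57 (k : ℕ) : ℕ := L57.getD k 0

/-- the forbidden columns after each column -/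
def Qs : List (List ℕ) := [q0, q1, q2, q3, q4, q5, q6, q7, q8, q9, q10, q11, q12, q13, q14, q15, q16, q17, q18, q19, q20,
   q21, q22, q23, q24, q25, q26, q27, q28, q29, q30, q31, q32, q33, q34, q35, q36, q37, q38, q39, q40, q41, q42,
   q43, q44, q45, q46, q47, q48, q49, q50, q51, q52, q53, q54, q55, q56]

def Q (k : ℕ) : List ℕ := Qs.getD k []

/-! ### The variables -/

def vA (t p i : ℕ) : ℕ := (t * 12 + p) * 6 + i
def vV (i v : ℕ) : ℕ := 144 + 30 * i + v
def vX (f j i : ℕ) : ℕ := 324 + (f * 6 + j) * 6 + i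
def vY (d j i : ℕ) : ℕ := 684 + (d * 6 + j) * 6 + i
def vM (d j : ℕ) : ℕ := 756 + d * 6 + j
def vS (j : ℕ) : ℕ := 768 + j
def vC (d : ℕ) : ℕ := 774 + d
def vG (k : ℕ) : ℕ := 776 + k

/-- the state before or after -/
def S2 (s s' : St) (t : ℕ) : St := if t = 0 then s else s'

/-- the letters -/
def LL (s s' : St) (t p : ℕ) : ℕ := (lseq (S2 s s' t).1 p).val

/-- the atoms of the windows of one colour -/
def vb (w w' : ZMod 6 × ℕ) (v : ℕ) : Bool :=
  if v < 6 then decide (inn w (v : ZMod 6))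
  else if v < 12 then decide (inn w' ((v - 6 : ℕ) : ZMod 6))
  else if v < 18 then decide ((((v - 12 : ℕ) : ZMod 6) - 1 - w.1).val < w.2)
  else if v < 24 then decide ((((v - 18 : ℕ) : ZMod 6) - 1 - w'.1).val < w'.2)
  else decide (outc w w' ((v - 24 : ℕ) : ZMod 6))

def tt1 (f : ℕ) : ℕ := [0, 0, 1, 0, 1, 1, 0, 0, 1, 1].getD f 0
def tt2 (f : ℕ) : ℕ := [0, 1, 1, 0, 0, 1, 0, 0, 1, 1].getD f 0

/-- the atom of the window -/
def tv (f j : ℕ) : ℕ :=
  match f with
  | 0 => 24 + j % 6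
  | 1 => 24 + j % 6
  | 2 => 24 + j % 6
  | 3 => 24 + (j + 3) % 6
  | 4 => 24 + (j + 3) % 6
  | 5 => 24 + (j + 3) % 6
  | 6 => (j + 3) % 6
  | 7 => j % 6
  | 8 => 6 + (j + 3) % 6
  | _ => 6 + j % 6

/-- the witnesses of the XC relation -/
def XP (s s' : St) (f j : ℕ) (i : Fin 6) : Prop :=
  offl ((S2 s s' (tt1 f)).1 (f6 (j + 1))) ((S2 s s' (tt2 f)).1 (f6 (j + 5))) i ∧
    vb (s.2 i) (s'.2 i) (tv f j) = true

def YP (s s' : St) (d j i : ℕ) : Prop :=
  (LL s s' d (2 * j) = i ∨ LL s s' d (2 * j + 1) = i) ∧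
    (LL s s' (1 - d) (2 * ((j + 1) % 6)) = i ∨ LL s s' (1 - d) (2 * ((j + 1) % 6) + 1) = i)

def MP (s s' : St) (d j : ℕ) : Prop :=
  mt ((S2 s s' d).1 (f6 j)) ((S2 s s' (1 - d)).1 (f6 (j + 1)))

def GP (s s' : St) (k : ℕ) : Prop := IsCol s.1 (c57 k) ∧ ∀ q ∈ Q k, ¬ IsCol s'.1 q

/-- the variables -/
def nu (s s' : St) (v : ℕ) : Prop :=
  if v < 144 then LL s s' (v / 72) (v / 6 % 12) = v % 6
  else if v < 324 then vb (s.2 (f6 ((v - 144) / 30))) (s'.2 (f6 ((v - 144) / 30)))
    ((v - 144) % 30) = true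
  else if v < 684 then XP s s' ((v - 324) / 36) ((v - 324) / 6 % 6) (f6 ((v - 324) % 6))
  else if v < 756 then YP s s' ((v - 684) / 36) ((v - 684) / 6 % 6) ((v - 684) % 6)
  else if v < 768 then MP s s' ((v - 756) / 6) ((v - 756) % 6)
  else if v < 774 then MP s s' 0 (v - 768) ∧ MP s s' 1 (v - 768)
  else if v < 776 then ∀ j < 6, MP s s' (v - 774) j
  else GP s s' (v - 776)

variable {s s' : St}

theorem nuA {t p i : ℕ} (ht : t < 2) (hp : p < 12) (hi : i < 6) :
    nu s s' (vA t p i) ↔ LL s s' t p = i := by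
  unfold nu vA
  rw [if_pos (by omega), show ((t * 12 + p) * 6 + i) / 72 = t by omega,
    show ((t * 12 + p) * 6 + i) / 6 % 12 = p by omega, show ((t * 12 + p) * 6 + i) % 6 = i by omega]

theorem nuV {i v : ℕ} (hi : i < 6) (hv : v < 30) :
    nu s s' (vV i v) ↔ vb (s.2 (f6 i)) (s'.2 (f6 i)) v = true := by
  unfold nu vV
  rw [if_neg (by omega), if_pos (by omega), show (144 + 30 * i + v - 144) / 30 = i by omega,
    show (144 + 30 * i + v - 144) % 30 = v by omega]

theorem nuX {f j i : ℕ} (hf : f < 10) (hj : j < 6) (hi : i < 6) :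
    nu s s' (vX f j i) ↔ XP s s' f j (f6 i) := by
  unfold nu vX
  rw [if_neg (by omega), if_neg (by omega), if_pos (by omega),
    show (324 + (f * 6 + j) * 6 + i - 324) / 36 = f by omega,
    show (324 + (f * 6 + j) * 6 + i - 324) / 6 % 6 = j by omega,
    show (324 + (f * 6 + j) * 6 + i - 324) % 6 = i by omega]

theorem nuY {d j i : ℕ} (hd : d < 2) (hj : j < 6) (hi : i < 6) :
    nu s s' (vY d j i) ↔ YP s s' d j i := by
  unfold nu vY
  rw [if_neg (by omega), if_neg (by omega), if_neg (by omega), if_pos (by omega),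
    show (684 + (d * 6 + j) * 6 + i - 684) / 36 = d by omega,
    show (684 + (d * 6 + j) * 6 + i - 684) / 6 % 6 = j by omega,
    show (684 + (d * 6 + j) * 6 + i - 684) % 6 = i by omega]

theorem nuM {d j : ℕ} (hd : d < 2) (hj : j < 6) : nu s s' (vM d j) ↔ MP s s' d j := by
  unfold nu vM
  rw [if_neg (by omega), if_neg (by omega), if_neg (by omega), if_neg (by omega),
    if_pos (by omega), show (756 + d * 6 + j - 756) / 6 = d by omega,
    show (756 + d * 6 + j - 756) % 6 = j by omega]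

theorem nuS {j : ℕ} (hj : j < 6) : nu s s' (vS j) ↔ MP s s' 0 j ∧ MP s s' 1 j := by
  unfold nu vS
  rw [if_neg (by omega), if_neg (by omega), if_neg (by omega), if_neg (by omega),
    if_neg (by omega), if_pos (by omega), show 768 + j - 768 = j by omega]

theorem nuC {d : ℕ} (hd : d < 2) : nu s s' (vC d) ↔ ∀ j < 6, MP s s' d j := by
  unfold nu vC
  rw [if_neg (by omega), if_neg (by omega), if_neg (by omega), if_neg (by omega),
    if_neg (by omega), if_neg (by omega), if_pos (by omega), show 774 + d - 774 = d by omega]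

theorem nuG {k : ℕ} : nu s s' (vG k) ↔ GP s s' k := by
  unfold nu vG
  rw [if_neg (by omega), if_neg (by omega), if_neg (by omega), if_neg (by omega),
    if_neg (by omega), if_neg (by omega), if_neg (by omega), show 776 + k - 776 = k by omega]

/-! ### The letters -/

theorem LL_lt (t p : ℕ) : LL s s' t p < 6 := (lseq (S2 s s' t).1 p).isLt

theorem LL_even (t : ℕ) {j : ℕ} : LL s s' t (2 * j) = ((S2 s s' t).1 (f6 j)).1.val := by
  unfold LL lseq
  rw [if_pos (by omega), show 2 * j / 2 = j by omega]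
  rfl

theorem LL_odd (t : ℕ) {j : ℕ} : LL s s' t (2 * j + 1) = ((S2 s s' t).1 (f6 j)).2.val := by
  unfold LL lseq
  rw [if_neg (by omega), show (2 * j + 1) / 2 = j by omega]
  rfl

theorem f6_succ (j : ℕ) : f6 (j + 1) = f6 j + 1 := by
  apply Fin.ext
  show (j + 1) % 6 = (j % 6 + 1) % 6
  omega

theorem f6_mod (j : ℕ) : f6 (j % 6) = f6 j := by
  apply Fin.ext
  show j % 6 % 6 = j % 6
  omega

theorem f6_pred (j : ℕ) : f6 (j + 5) = f6 j - 1 := by
  apply Fin.ext
  rw [Fin.val_sub]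
  show (j + 5) % 6 = (6 - 1 + j % 6) % 6
  omega

theorem f6_val (j : Fin 6) : f6 j.val = j := by
  apply Fin.ext
  show j.val % 6 = j.val
  omega

theorem f6_lt {i : ℕ} (hi : i < 6) : (f6 i).val = i := Nat.mod_eq_of_lt hi

theorem cast6 (j : ℕ) : ((f6 j).val : ZMod 6) = ((j % 6 : ℕ) : ZMod 6) := rfl

theorem okS2 (h : StepC All Et s s') (t : ℕ) : OkSt (S2 s s' t) := by
  unfold S2
  split_ifs
  · exact h.ok.ok
  · exact h.ok'.ok

theorem covS2 (h : StepC All Et s s') (t : ℕ) : Cov (S2 s s' t).2 := by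
  unfold S2
  split_ifs
  · exact h.ok.cov
  · exact h.ok'.cov

/-- two places which cannot have the same letter -/
def adj (p p2 : ℕ) : Bool :=
  (Nat.beq (p % 2) 0 && Nat.beq p2 (p + 1)) || Nat.beq (p2 / 2) ((p / 2 + 1) % 6)

theorem adj_ne (h : StepC All Et s s') {t p p2 : ℕ} (ha : adj p p2 = true) :
    LL s s' t p ≠ LL s s' t p2 := by
  have hk := okS2 h t
  unfold adj at ha
  rw [Bool.or_eq_true, Bool.and_eq_true] at ha
  rcases ha with ⟨h1, h2⟩ | h1
  · have h1 := Nat.eq_of_beq_eq_true h1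
    have h2 := Nat.eq_of_beq_eq_true h2
    obtain ⟨j, rfl⟩ : ∃ j, p = 2 * j := ⟨p / 2, by omega⟩
    subst h2
    rw [LL_even, LL_odd]
    intro he
    exact (hk.2 (f6 j)).1 (Fin.ext he)
  · have h1 := Nat.eq_of_beq_eq_true h1
    have e : f6 (p2 / 2) = f6 (p / 2) + 1 := by rw [h1, f6_mod, f6_succ]
    obtain ⟨-, -, -, h3, h4, h5, h6⟩ := hk.2 (f6 (p / 2))
    rw [← e] at h3 h4 h5 h6
    rcases Nat.even_or_odd' p with ⟨j, rfl | rfl⟩ <;> rcases Nat.even_or_odd' p2 with ⟨k, rfl | rfl⟩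
    · rw [LL_even, LL_even]
      rw [show 2 * j / 2 = j by omega, show 2 * k / 2 = k by omega] at h3
      exact fun he => h3 (Fin.ext he)
    · rw [LL_even, LL_odd]
      rw [show 2 * j / 2 = j by omega, show (2 * k + 1) / 2 = k by omega] at h4
      exact fun he => h4 (Fin.ext he)
    · rw [LL_odd, LL_even]
      rw [show (2 * j + 1) / 2 = j by omega, show 2 * k / 2 = k by omega] at h5
      exact fun he => h5 (Fin.ext he)
    · rw [LL_odd, LL_odd]
      rw [show (2 * j + 1) / 2 = j by omega, show (2 * k + 1) / 2 = k by omega] at h6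
      exact fun he => h6 (Fin.ext he)

/-! ### The windows -/

theorem vb_in {w w' : ZMod 6 × ℕ} {t j : ℕ} (ht : t < 2) (hj : j < 6)
    (h : inn (if t = 0 then w else w') (j : ZMod 6)) : vb w w' (6 * t + j) = true := by
  unfold vb
  rcases (by omega : t = 0 ∨ t = 1) with rfl | rfl
  · rw [if_pos (by omega), show 6 * 0 + j = j by omega]
    exact decide_eq_true h
  · rw [if_neg (by omega), if_pos (by omega), show 6 * 1 + j - 6 = j by omega]
    exact decide_eq_true h

theorem vb_cv {w w' : ZMod 6 × ℕ} {t j : ℕ} (ht : t < 2) (hj : j < 6)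
    (h : ((j : ZMod 6) - 1 - (if t = 0 then w else w').1).val < (if t = 0 then w else w').2) :
    vb w w' (12 + 6 * t + j) = true := by
  unfold vb
  rcases (by omega : t = 0 ∨ t = 1) with rfl | rfl
  · rw [if_neg (by omega), if_neg (by omega), if_pos (by omega),
      show 12 + 6 * 0 + j - 12 = j by omega]
    exact decide_eq_true h
  · rw [if_neg (by omega), if_neg (by omega), if_neg (by omega), if_pos (by omega),
      show 12 + 6 * 1 + j - 18 = j by omega]
    exact decide_eq_true h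

theorem vb_oc {w w' : ZMod 6 × ℕ} {j : ℕ} (hj : j < 6) (h : outc w w' (j : ZMod 6)) :
    vb w w' (24 + j) = true := by
  unfold vb
  rw [if_neg (by omega), if_neg (by omega), if_neg (by omega), if_neg (by omega),
    show 24 + j - 24 = j by omega]
  exact decide_eq_true h

theorem inn_of_outc {w : ZMod 6 × ℕ} {j : ZMod 6} (h : outc w w j) : inn w (j + 3) := by
  unfold outc clen at h
  rw [if_pos rfl] at h
  unfold inn
  rw [show w.1 - (j + 3) + 3 = w.1 - j by ring]
  omega

end Vale.Agent.P032.H617.BS
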