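import Vale.Agent.P032.H617.BS.Fam

/-!
# P032: the steps which are not `NsC`, by a certificate: the test of the clauses
-/

namespace Vale.Agent.P032.H617.BS

open Vale.Agent.P032.H859.Rup
open Vale.Agent.P032.H184 (P N lit_P lit_N CL CL_cons CL_nil mk sat_mk cs CL_cs f6)
open Vale.Agent.P032.Six Vale.Agent.P032.H429 Vale.Agent.P032.H158 Vale.Agent.P032.H728
  Vale.Agent.P032.H623

variable {s s' : St}

theorem ltB {a b : ℕ} : Nat.ble (Nat.succ a) b = true ↔ a < b :=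
  ⟨fun h => Nat.le_of_ble_eq_true h, fun h => Nat.ble_eq_true_of_le h⟩

/-! ### The XC witnesses -/

theorem xp_of {f j : ℕ} {i : Fin 6} {p q : Fin 6 × Fin 6}
    (hp : (S2 s s' (tt1 f)).1 (f6 (j + 1)) = p) (hq : (S2 s s' (tt2 f)).1 (f6 (j + 5)) = q)
    (ho : offl p q i) (hv : vb (s.2 i) (s'.2 i) (tv f j) = true) : XP s s' f j i := by
  unfold XP
  rw [hp, hq]
  exact ⟨ho, hv⟩

theorem exX (h : StepC All Et s s') {f j : ℕ} (hf : f < 10) (hj : j < 6) :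
    ∃ i : Fin 6, XP s s' f j i := by
  have e1 : f6 (j + 1) = f6 j + 1 := f6_succ j
  have e5 : f6 (j + 5) = f6 j - 1 := f6_pred j
  have ej : ((f6 j).val : ZMod 6) = (j : ZMod 6) := by
    have : (f6 j).val = j := f6_lt hj
    rw [this]
  have e3 : (((j + 3) % 6 : ℕ) : ZMod 6) = (j : ZMod 6) + 3 := by
    interval_cases j <;> decide
  obtain ⟨⟨a1, a2, a3⟩, b1, b2, b3⟩ := h.xc (f6 j)
  obtain ⟨⟨c1, -, -⟩, d1, -, -⟩ := h.ok.xc (f6 j)
  obtain ⟨⟨c2, -, -⟩, d2, -, -⟩ := h.ok'.xc (f6 j)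
  rw [ej] at a1 a2 a3 b1 b2 b3 c1 d1 c2 d2
  have jm : j % 6 = j := Nat.mod_eq_of_lt hj
  have j3 : (j + 3) % 6 < 6 := Nat.mod_lt _ (by norm_num)
  have oo : ∀ i, outc (s.2 i) (s'.2 i) (j : ZMod 6) → vb (s.2 i) (s'.2 i) (24 + j % 6) = true :=
    fun i hi => by rw [jm]; exact vb_oc hj hi
  have ii : ∀ i, innc (s.2 i) (s'.2 i) (j : ZMod 6) →
      vb (s.2 i) (s'.2 i) (24 + (j + 3) % 6) = true := fun i hi => by
    refine vb_oc j3 ?_
    rw [e3]
    exact hi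
  interval_cases f
  · obtain ⟨i, h1, h2⟩ := a1
    exact ⟨i, xp_of (by rw [e1]; rfl) (by rw [e5]; rfl) h1 (oo i (h2 trivial))⟩
  · obtain ⟨i, h1, h2⟩ := a2
    exact ⟨i, xp_of (by rw [e1]; rfl) (by rw [e5]; rfl) h1 (oo i (h2 trivial))⟩
  · obtain ⟨i, h1, h2⟩ := a3
    exact ⟨i, xp_of (by rw [e1]; rfl) (by rw [e5]; rfl) h1 (oo i (h2 trivial))⟩
  · obtain ⟨i, h1, h2⟩ := b1
    exact ⟨i, xp_of (by rw [e1]; rfl) (by rw [e5]; rfl) h1 (ii i (h2 trivial))⟩
  · obtain ⟨i, h1, h2⟩ := b2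
    exact ⟨i, xp_of (by rw [e1]; rfl) (by rw [e5]; rfl) h1 (ii i (h2 trivial))⟩
  · obtain ⟨i, h1, h2⟩ := b3
    exact ⟨i, xp_of (by rw [e1]; rfl) (by rw [e5]; rfl) h1 (ii i (h2 trivial))⟩
  · obtain ⟨i, h1, h2⟩ := c1
    refine ⟨i, xp_of (by rw [e1]; rfl) (by rw [e5]; rfl) h1 ?_⟩
    have h3 := inn_of_outc (h2 trivial)
    rw [← e3] at h3
    have h4 := vb_in (w := s.2 i) (w' := s'.2 i) (t := 0) (by norm_num) j3 (by simpa using h3)
    rw [show 6 * 0 + (j + 3) % 6 = (j + 3) % 6 by omega] at h4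
    exact h4
  · obtain ⟨i, h1, h2⟩ := d1
    refine ⟨i, xp_of (by rw [e1]; rfl) (by rw [e5]; rfl) h1 ?_⟩
    have h3 := inn_of_outc (h2 trivial : outc (s.2 i) (s.2 i) ((j : ZMod 6) + 3))
    rw [show (j : ZMod 6) + 3 + 3 = (j : ZMod 6) by
      rw [add_assoc, show (3 : ZMod 6) + 3 = 0 by decide, add_zero]] at h3
    have h4 := vb_in (w := s.2 i) (w' := s'.2 i) (t := 0) (by norm_num) hj (by simpa using h3)
    rw [show 6 * 0 + j = j % 6 by omega] at h4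
    exact h4
  · obtain ⟨i, h1, h2⟩ := c2
    refine ⟨i, xp_of (by rw [e1]; rfl) (by rw [e5]; rfl) h1 ?_⟩
    have h3 := inn_of_outc (h2 trivial)
    rw [← e3] at h3
    have h4 := vb_in (w := s.2 i) (w' := s'.2 i) (t := 1) (by norm_num) j3 (by simpa using h3)
    rw [show 6 * 1 + (j + 3) % 6 = 6 + (j + 3) % 6 by omega] at h4
    exact h4
  · obtain ⟨i, h1, h2⟩ := d2
    refine ⟨i, xp_of (by rw [e1]; rfl) (by rw [e5]; rfl) h1 ?_⟩
    have h3 := inn_of_outc (h2 trivial : outc (s'.2 i) (s'.2 i) ((j : ZMod 6) + 3))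
    rw [show (j : ZMod 6) + 3 + 3 = (j : ZMod 6) by
      rw [add_assoc, show (3 : ZMod 6) + 3 = 0 by decide, add_zero]] at h3
    have h4 := vb_in (w := s.2 i) (w' := s'.2 i) (t := 1) (by norm_num) hj (by simpa using h3)
    rw [show 6 * 1 + j = 6 + j % 6 by omega] at h4
    exact h4

/-! ### The letters in common -/

theorem exY {d j : ℕ} (h : MP s s' d j) : ∃ i < 6, YP s s' d j i := by
  have e0 : LL s s' d (2 * j) = ((S2 s s' d).1 (f6 j)).1.val := LL_even d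
  have e1 : LL s s' d (2 * j + 1) = ((S2 s s' d).1 (f6 j)).2.val := LL_odd d
  have e2 : LL s s' (1 - d) (2 * ((j + 1) % 6)) = ((S2 s s' (1 - d)).1 (f6 (j + 1))).1.val := by
    rw [LL_even, f6_mod]
  have e3 : LL s s' (1 - d) (2 * ((j + 1) % 6) + 1) =
      ((S2 s s' (1 - d)).1 (f6 (j + 1))).2.val := by
    rw [LL_odd, f6_mod]
  unfold MP H623.mt at h
  unfold YP
  rw [e0, e1, e2, e3]
  rcases h with h | h | h | h
  · exact ⟨_, ((S2 s s' d).1 (f6 j)).1.isLt, Or.inl rfl, Or.inl (by rw [h])⟩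
  · exact ⟨_, ((S2 s s' d).1 (f6 j)).1.isLt, Or.inl rfl, Or.inr (by rw [h])⟩
  · exact ⟨_, ((S2 s s' d).1 (f6 j)).2.isLt, Or.inr rfl, Or.inl (by rw [h])⟩
  · exact ⟨_, ((S2 s s' d).1 (f6 j)).2.isLt, Or.inr rfl, Or.inr (by rw [h])⟩

theorem notNs (hn : ¬ NsC s.1 s'.1) :
    (∃ j < 6, MP s s' 0 j ∧ MP s s' 1 j) ∨ (∀ j < 6, MP s s' 0 j) ∨ ∀ j < 6, MP s s' 1 j := by
  have e0 : ∀ j : Fin 6, MP s s' 0 j.val ↔ H623.mt (s.1 j) (s'.1 (j + 1)) := by
    intro j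
    unfold MP
    rw [f6_succ, f6_val]
    rfl
  have e1 : ∀ j : Fin 6, MP s s' 1 j.val ↔ H623.mt (s'.1 j) (s.1 (j + 1)) := by
    intro j
    unfold MP
    rw [f6_succ, f6_val]
    rfl
  unfold NsC at hn
  by_contra hcon
  rw [not_or, not_or] at hcon
  obtain ⟨h1, h2, h3⟩ := hcon
  refine hn ⟨fun j hj => h1 ⟨j.val, j.isLt, (e0 j).2 hj.1, (e1 j).2 hj.2⟩, fun hj => h2 ?_,
    fun hj => h3 ?_⟩
  · intro j hj6
    exact (e0 ⟨j, hj6⟩).2 (hj ⟨j, hj6⟩)
  · intro j hj6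
    exact (e1 ⟨j, hj6⟩).2 (hj ⟨j, hj6⟩)

/-! ### The families -/

/-- the clause; the family `6` (one colour) is tested separately -/
def clsX (f x y i z q : ℕ) : List ℕ :=
  match f with
  | 0 => cs (fun _ => true) fun c => P (vA x y c)
  | 1 => [N (vA x y i), N (vA x y z)]
  | 2 => [N (vA x y i), N (vA x z i)]
  | 3 => [N (vA x (2 * y) i), P (vV i (6 * x + y))]
  | 4 => [N (vA x (2 * y + 1) i), P (vV i (6 * x + (y + 3) % 6))]
  | 5 => cs (fun _ => true) fun c => P (vV c (12 + 6 * x + y))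
  | 7 => cs (fun _ => true) fun c => P (vX x y c)
  | 8 => [N (vX x y i), P (vV i (tv x y))]
  | 9 => [N (vX x y i), N (vA (tt1 x) (2 * ((y + 1) % 6) + z) i)]
  | 10 => [N (vX x y i), N (vA (tt2 x) (2 * ((y + 5) % 6) + z) i)]
  | 11 => [P (vS 0), P (vS 1), P (vS 2), P (vS 3), P (vS 4), P (vS 5), P (vC 0), P (vC 1)]
  | 12 => [N (vS y), P (vM x y)]
  | 13 => [N (vC x), P (vM x y)]
  | 14 => N (vM x y) :: cs (fun _ => true) fun c => P (vY x y c)
  | 15 => [N (vY x y i), P (vA x (2 * y) i), P (vA x (2 * y + 1) i)]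
  | 16 => [N (vY x y i), P (vA (1 - x) (2 * ((y + 1) % 6)) i),
      P (vA (1 - x) (2 * ((y + 1) % 6) + 1) i)]
  | 17 => [N (vG x), P (vA 0 y (dg (c57 x) y))]
  | 18 => [N (vG x), N (vA 1 0 (dg q 0)), N (vA 1 1 (dg q 1)), N (vA 1 2 (dg q 2)),
      N (vA 1 3 (dg q 3)), N (vA 1 4 (dg q 4)), N (vA 1 5 (dg q 5)), N (vA 1 6 (dg q 6)),
      N (vA 1 7 (dg q 7)), N (vA 1 8 (dg q 8)), N (vA 1 9 (dg q 9)), N (vA 1 10 (dg q 10)),
      N (vA 1 11 (dg q 11))]
  | _ => []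

def lt (a b : ℕ) : Bool := Nat.ble (Nat.succ a) b

theorem lt_iff {a b : ℕ} : lt a b = true ↔ a < b := ltB

/-- the member test -/
def memB (q : ℕ) : List ℕ → Bool
  | [] => false
  | a :: l => Nat.beq a q || memB q l

theorem memB_spec {q : ℕ} : ∀ {l : List ℕ}, memB q l = true → q ∈ l
  | [], h => by cases h
  | a :: l, h => by
    unfold memB at h
    rw [Bool.or_eq_true] at h
    rcases h with h | h
    · rw [Nat.eq_of_beq_eq_true h]; exact List.mem_cons_self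
    · exact List.mem_cons_of_mem _ (memB_spec h)

def okX (f x y i z q : ℕ) : Bool :=
  match f with
  | 0 => lt x 2 && lt y 12
  | 1 => lt x 2 && (lt y 12 && (lt i 6 && (lt z 6 && !(Nat.beq i z))))
  | 2 => lt x 2 && (lt y 12 && (lt i 6 && (lt z 12 && adj y z)))
  | 3 => lt x 2 && (lt y 6 && lt i 6)
  | 4 => lt x 2 && (lt y 6 && lt i 6)
  | 5 => lt x 2 && lt y 6
  | 7 => lt x 10 && lt y 6
  | 8 => lt x 10 && (lt y 6 && lt i 6)
  | 9 => lt x 10 && (lt y 6 && (lt i 6 && lt z 2))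
  | 10 => lt x 10 && (lt y 6 && (lt i 6 && lt z 2))
  | 11 => true
  | 12 => lt x 2 && lt y 6
  | 13 => lt x 2 && lt y 6
  | 14 => lt x 2 && lt y 6
  | 15 => lt x 2 && (lt y 6 && lt i 6)
  | 16 => lt x 2 && (lt y 6 && lt i 6)
  | 17 => lt x 57 && (lt y 12 && lt (dg (c57 x) y) 6)
  | 18 => lt x 57 && (memB q (Q x) && (lt (dg q 0) 6 && (lt (dg q 1) 6 && (lt (dg q 2) 6 &&
      (lt (dg q 3) 6 && (lt (dg q 4) 6 && (lt (dg q 5) 6 && (lt (dg q 6) 6 && (lt (dg q 7) 6 &&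
      (lt (dg q 8) 6 && (lt (dg q 9) 6 && (lt (dg q 10) 6 && lt (dg q 11) 6))))))))))))
  | _ => false

theorem tt1_lt {f : ℕ} (hf : f < 10) : tt1 f < 2 := by
  unfold tt1; interval_cases f <;> decide

theorem tt2_lt {f : ℕ} (hf : f < 10) : tt2 f < 2 := by
  unfold tt2; interval_cases f <;> decide

theorem tv_lt {f j : ℕ} (hf : f < 10) : tv f j < 30 := by
  interval_cases f <;> (show _ < 30) <;> unfold tv <;> simp only <;> omega

theorem offl_LL1 {f j i z : ℕ} (hi : i < 6) (hz : z < 2) (h : XP s s' f j (f6 i)) :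
    LL s s' (tt1 f) (2 * ((j + 1) % 6) + z) ≠ i := by
  obtain ⟨⟨h1, h2, -, -⟩, -⟩ := h
  intro he
  rcases (by omega : z = 0 ∨ z = 1) with rfl | rfl
  · rw [Nat.add_zero, LL_even, f6_mod] at he
    exact h1 (Fin.ext (by rw [he, f6_lt hi]))
  · rw [LL_odd, f6_mod] at he
    exact h2 (Fin.ext (by rw [he, f6_lt hi]))

theorem offl_LL2 {f j i z : ℕ} (hi : i < 6) (hz : z < 2) (h : XP s s' f j (f6 i)) :
    LL s s' (tt2 f) (2 * ((j + 5) % 6) + z) ≠ i := by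
  obtain ⟨⟨-, -, h1, h2⟩, -⟩ := h
  intro he
  rcases (by omega : z = 0 ∨ z = 1) with rfl | rfl
  · rw [Nat.add_zero, LL_even, f6_mod] at he
    exact h1 (Fin.ext (by rw [he, f6_lt hi]))
  · rw [LL_odd, f6_mod] at he
    exact h2 (Fin.ext (by rw [he, f6_lt hi]))

theorem or2 {a b : ℕ} (h : Lit (nu s s') a ∨ Lit (nu s s') b) : CL (nu s s') [a, b] := by
  rw [CL_cons, CL_cons]
  rcases h with h | h
  · exact Or.inl h
  · exact Or.inr (Or.inl h)

/-- `¬ a ∨ ¬ b` -/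
theorem nn {a b : ℕ} (h : nu s s' a → nu s s' b → False) : CL (nu s s') [N a, N b] := by
  refine or2 ?_
  rw [lit_N, lit_N]
  by_cases ha : nu s s' a
  · exact Or.inr fun hb => h ha hb
  · exact Or.inl ha

theorem np {a b : ℕ} (h : nu s s' a → nu s s' b) : CL (nu s s') [N a, P b] := by
  refine or2 ?_
  rw [lit_N, lit_P]
  by_cases ha : nu s s' a
  · exact Or.inr (h ha)
  · exact Or.inl ha

theorem cls_true (h : StepC All Et s s') (hn : ¬ NsC s.1 s'.1) {f x y i z q : ℕ}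
    (ho : okX f x y i z q = true) : CL (nu s s') (clsX f x y i z q) := by
  match f, ho with
  | 0, ho =>
    simp only [okX, Bool.and_eq_true, lt_iff] at ho
    obtain ⟨hx, hy⟩ := ho
    refine CL_cs.2 ⟨LL s s' x y, LL_lt _ _, rfl, ?_⟩
    rw [lit_P, nuA hx hy (LL_lt _ _)]
  | 1, ho =>
    simp only [okX, Bool.and_eq_true, lt_iff, Bool.not_eq_true'] at ho
    obtain ⟨hx, hy, hi, hz, hb⟩ := ho
    refine nn fun h1 h2 => ?_
    rw [nuA hx hy hi] at h1
    rw [nuA hx hy hz] at h2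
    have : i = z := by omega
    subst this
    rw [Nat.beq_refl] at hb
    cases hb
  | 2, ho =>
    simp only [okX, Bool.and_eq_true, lt_iff] at ho
    obtain ⟨hx, hy, hi, hz, ha⟩ := ho
    refine nn fun h1 h2 => ?_
    rw [nuA hx hy hi] at h1
    rw [nuA hx hz hi] at h2
    exact adj_ne h ha (by rw [h1, h2])
  | 3, ho =>
    simp only [okX, Bool.and_eq_true, lt_iff] at ho
    obtain ⟨hx, hy, hi⟩ := ho
    refine np fun h1 => ?_
    rw [nuA hx (by omega) hi, LL_even] at h1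
    rw [nuV hi (by omega)]
    refine vb_in hx hy ?_
    obtain ⟨-, h2, -⟩ := (okS2 h x).2 (f6 y)
    have e : ((S2 s s' x).1 (f6 y)).1 = f6 i := Fin.ext (by rw [h1, f6_lt hi])
    rw [e, f6_lt hy] at h2
    rcases (by omega : x = 0 ∨ x = 1) with rfl | rfl
    · exact h2
    · exact h2
  | 4, ho =>
    simp only [okX, Bool.and_eq_true, lt_iff] at ho
    obtain ⟨hx, hy, hi⟩ := ho
    refine np fun h1 => ?_
    rw [nuA hx (by omega) hi, LL_odd] at h1
    have y3 : (y + 3) % 6 < 6 := Nat.mod_lt _ (by norm_num)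
    rw [nuV hi (by omega)]
    refine vb_in hx y3 ?_
    obtain ⟨-, -, h2, -⟩ := (okS2 h x).2 (f6 y)
    have e : ((S2 s s' x).1 (f6 y)).2 = f6 i := Fin.ext (by rw [h1, f6_lt hi])
    rw [e, f6_lt hy] at h2
    have e3 : (((y + 3) % 6 : ℕ) : ZMod 6) = (y : ZMod 6) + 3 := by
      interval_cases y <;> decide
    rw [e3]
    rcases (by omega : x = 0 ∨ x = 1) with rfl | rfl
    · exact h2
    · exact h2
  | 5, ho =>
    simp only [okX, Bool.and_eq_true, lt_iff] at ho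
    obtain ⟨hx, hy⟩ := ho
    obtain ⟨i, hi⟩ := covS2 h x (y : ZMod 6)
    refine CL_cs.2 ⟨i.val, i.isLt, rfl, ?_⟩
    rw [lit_P, nuV i.isLt (by omega), f6_val]
    refine vb_cv hx hy ?_
    rcases (by omega : x = 0 ∨ x = 1) with rfl | rfl
    · exact hi
    · exact hi
  | 7, ho =>
    simp only [okX, Bool.and_eq_true, lt_iff] at ho
    obtain ⟨hx, hy⟩ := ho
    obtain ⟨i, hi⟩ := exX h hx hy
    refine CL_cs.2 ⟨i.val, i.isLt, rfl, ?_⟩
    rw [lit_P, nuX hx hy i.isLt, f6_val]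
    exact hi
  | 8, ho =>
    simp only [okX, Bool.and_eq_true, lt_iff] at ho
    obtain ⟨hx, hy, hi⟩ := ho
    refine np fun h1 => ?_
    rw [nuX hx hy hi] at h1
    rw [nuV hi (tv_lt hx)]
    exact h1.2
  | 9, ho =>
    simp only [okX, Bool.and_eq_true, lt_iff] at ho
    obtain ⟨hx, hy, hi, hz⟩ := ho
    refine nn fun h1 h2 => ?_
    rw [nuX hx hy hi] at h1
    rw [nuA (tt1_lt hx) (by omega) hi] at h2
    exact offl_LL1 hi hz h1 h2
  | 10, ho =>
    simp only [okX, Bool.and_eq_true, lt_iff] at ho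
    obtain ⟨hx, hy, hi, hz⟩ := ho
    refine nn fun h1 h2 => ?_
    rw [nuX hx hy hi] at h1
    rw [nuA (tt2_lt hx) (by omega) hi] at h2
    exact offl_LL2 hi hz h1 h2
  | 11, _ =>
    show CL (nu s s')
      [P (vS 0), P (vS 1), P (vS 2), P (vS 3), P (vS 4), P (vS 5), P (vC 0), P (vC 1)]
    rcases notNs hn with ⟨j, hj, h1⟩ | h1 | h1
    · refine ⟨P (vS j), ?_, ?_⟩
      · interval_cases j <;> simp
      · rw [lit_P, nuS hj]; exact h1
    · refine ⟨P (vC 0), by simp, ?_⟩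
      rw [lit_P, nuC (by norm_num)]; exact h1
    · refine ⟨P (vC 1), by simp, ?_⟩
      rw [lit_P, nuC (by norm_num)]; exact h1
  | 12, ho =>
    simp only [okX, Bool.and_eq_true, lt_iff] at ho
    obtain ⟨hx, hy⟩ := ho
    refine np fun h1 => ?_
    rw [nuS hy] at h1
    rw [nuM hx hy]
    rcases (by omega : x = 0 ∨ x = 1) with rfl | rfl
    · exact h1.1
    · exact h1.2
  | 13, ho =>
    simp only [okX, Bool.and_eq_true, lt_iff] at ho
    obtain ⟨hx, hy⟩ := ho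
    refine np fun h1 => ?_
    rw [nuC hx] at h1
    rw [nuM hx hy]
    exact h1 y hy
  | 14, ho =>
    simp only [okX, Bool.and_eq_true, lt_iff] at ho
    obtain ⟨hx, hy⟩ := ho
    show CL (nu s s') (N (vM x y) :: cs (fun _ => true) fun c => P (vY x y c))
    rw [CL_cons, lit_N, nuM hx hy]
    by_cases h1 : MP s s' x y
    · right
      obtain ⟨i, hi, h2⟩ := exY h1
      refine CL_cs.2 ⟨i, hi, rfl, ?_⟩
      rw [lit_P, nuY hx hy hi]
      exact h2
    · exact Or.inl h1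
  | 15, ho =>
    simp only [okX, Bool.and_eq_true, lt_iff] at ho
    obtain ⟨hx, hy, hi⟩ := ho
    show CL (nu s s') [N (vY x y i), P (vA x (2 * y) i), P (vA x (2 * y + 1) i)]
    rw [CL_cons, CL_cons, CL_cons, lit_N, lit_P, lit_P, nuY hx hy hi, nuA hx (by omega) hi,
      nuA hx (by omega) hi]
    by_cases h1 : YP s s' x y i
    · rcases h1.1 with h2 | h2
      · exact Or.inr (Or.inl h2)
      · exact Or.inr (Or.inr (Or.inl h2))
    · exact Or.inl h1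
  | 16, ho =>
    simp only [okX, Bool.and_eq_true, lt_iff] at ho
    obtain ⟨hx, hy, hi⟩ := ho
    show CL (nu s s') [N (vY x y i), P (vA (1 - x) (2 * ((y + 1) % 6)) i),
      P (vA (1 - x) (2 * ((y + 1) % 6) + 1) i)]
    rw [CL_cons, CL_cons, CL_cons, lit_N, lit_P, lit_P, nuY hx hy hi,
      nuA (by omega) (by omega) hi, nuA (by omega) (by omega) hi]
    by_cases h1 : YP s s' x y i
    · rcases h1.2 with h2 | h2
      · exact Or.inr (Or.inl h2)
      · exact Or.inr (Or.inr (Or.inl h2))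
    · exact Or.inl h1
  | 17, ho =>
    simp only [okX, Bool.and_eq_true, lt_iff] at ho
    obtain ⟨hx, hy, hd⟩ := ho
    refine np fun h1 => ?_
    rw [nuG] at h1
    rw [nuA (by norm_num) hy hd]
    exact h1.1 y hy
  | 18, ho =>
    simp only [okX, Bool.and_eq_true, lt_iff] at ho
    obtain ⟨hx, hm, d0, d1, d2, d3, d4, d5, d6, d7, d8, d9, d10, d11⟩ := ho
    show CL (nu s s') [N (vG x), N (vA 1 0 (dg q 0)), N (vA 1 1 (dg q 1)), N (vA 1 2 (dg q 2)),
      N (vA 1 3 (dg q 3)), N (vA 1 4 (dg q 4)), N (vA 1 5 (dg q 5)), N (vA 1 6 (dg q 6)),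
      N (vA 1 7 (dg q 7)), N (vA 1 8 (dg q 8)), N (vA 1 9 (dg q 9)), N (vA 1 10 (dg q 10)),
      N (vA 1 11 (dg q 11))]
    by_contra hcon
    simp only [CL_cons, CL_nil, lit_N, or_false, not_or, not_not] at hcon
    obtain ⟨h0, a0, a1, a2, a3, a4, a5, a6, a7, a8, a9, a10, a11⟩ := hcon
    rw [nuG] at h0
    rw [nuA (by norm_num) (by norm_num) (by assumption)] at a0 a1 a2 a3 a4 a5 a6 a7 a8 a9 a10 a11
    refine h0.2 q (memB_spec hm) fun p hp => ?_
    interval_cases p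
    exacts [a0, a1, a2, a3, a4, a5, a6, a7, a8, a9, a10, a11]
  | 6, ho => exact absurd ho Bool.false_ne_true
  | n + 19, ho => exact absurd ho Bool.false_ne_true

end Vale.Agent.P032.H617.BS
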